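import Vale.Agent.P267.H332.Pair.Curv
import Vale.Agent.P267.H877.Trans

/-!
# P267 / AIN0 (helper466): push-forward of norm functions along an infinite cyclic covering

`q : M → X` is a covering with deck group generated by `γ`, `N` a norm function on `M` with `N = 1`
for `|f| ≥ R`. The product over the fibres of `q` is a norm function on `X`, its curvature is the sum
over the fibres.
-/

set_option linter.unusedSectionVars false

open scoped Manifold ContDiff ComplexConjugate Matrix Topology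
open MeasureTheory Set Filter

noncomputable section

namespace Vale.Agent.P267.H466

open Vale.Agent.P267.FL Vale.Agent.P267.XT Vale.Agent.P267.H757 Vale.Agent.P267.H332

section localdiffeo

variable {Y X : Type*} [TopologicalSpace Y] [ChartedSpace C2 Y] [IsManifold 𝓘(ℂ, C2) ω Y]
  [TopologicalSpace X] [ChartedSpace C2 X] [IsManifold 𝓘(ℂ, C2) ω X]

/-- a chart compatible map is a local biholomorphism -/
theorem isLocalDiffeo {g : Y → X} (hg : ChartMap g) :
    IsLocalDiffeomorph 𝓘(ℂ, C2) 𝓘(ℂ, C2) ω g := by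
  intro y
  set e := chartAt C2 y with he
  set e' := chartAt C2 (g y) with he'
  have hy : y ∈ e.source := mem_chart_source C2 y
  have hgy : g y ∈ e'.source := mem_chart_source C2 (g y)
  have h1 : ∀ᶠ z in 𝓝 y, z ∈ e.source ∧ g z ∈ e'.source ∧ e' (g z) = e z := by
    filter_upwards [e.open_source.mem_nhds hy,
      hg.cont.continuousAt.preimage_mem_nhds (e'.open_source.mem_nhds hgy), hg.germ y] with z a b c
    exact ⟨a, b, c⟩
  obtain ⟨W, hW, hWo, hyW⟩ := mem_nhds_iff.1 h1
  set Φ := (e.trans e'.symm).restrOpen W hWo with hΦ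
  have hsrc : ∀ z, z ∈ Φ.source → z ∈ e.source ∧ e z ∈ e'.target ∧ z ∈ W := by
    intro z hz
    rw [hΦ, OpenPartialHomeomorph.restrOpen_source, OpenPartialHomeomorph.trans_source] at hz
    exact ⟨hz.1.1, hz.1.2, hz.2⟩
  refine ⟨⟨Φ.toPartialEquiv, Φ.open_source, Φ.open_target, ?_, ?_⟩, ?_, ?_⟩
  · have h2 : ContMDiffOn 𝓘(ℂ, C2) 𝓘(ℂ, C2) ω e e.source := contMDiffOn_chart
    have h3 : ContMDiffOn 𝓘(ℂ, C2) 𝓘(ℂ, C2) ω e'.symm e'.target := contMDiffOn_chart_symm
    exact h3.comp (h2.mono fun z hz => (hsrc z hz).1) fun z hz => (hsrc z hz).2.1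
  · have h2 : ContMDiffOn 𝓘(ℂ, C2) 𝓘(ℂ, C2) ω e' e'.source := contMDiffOn_chart
    have h3 : ContMDiffOn 𝓘(ℂ, C2) 𝓘(ℂ, C2) ω e.symm e.target := contMDiffOn_chart_symm
    have ht : ∀ z ∈ Φ.target, z ∈ e'.source ∧ e' z ∈ e.target := by
      intro z hz
      have h4 := Φ.map_target hz
      have h5 := hsrc _ h4
      have h6 : Φ (Φ.symm z) = z := Φ.right_inv hz
      have h7 : z = e'.symm (e (Φ.symm z)) := h6.symm
      refine ⟨by rw [h7]; exact e'.map_target h5.2.1, ?_⟩
      rw [h7, e'.right_inv h5.2.1]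
      exact e.map_source h5.1
    exact h3.comp (h2.mono fun z hz => (ht z hz).1) fun z hz => (ht z hz).2
  · show y ∈ Φ.source
    rw [hΦ, OpenPartialHomeomorph.restrOpen_source, OpenPartialHomeomorph.trans_source]
    refine ⟨⟨hy, ?_⟩, hyW⟩
    show e y ∈ e'.target
    rw [← (hW hyW).2.2]
    exact e'.map_source hgy
  · intro z hz
    have h5 := hsrc z hz
    have h6 := hW h5.2.2
    show g z = e'.symm (e z)
    rw [← h6.2.2, e'.left_inv h6.2.1]

/-- pull-back of norm functions -/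
theorem isNormFn_comp {g : Y → X} (hg : ChartMap g) {N : X → ℝ} (h : IsNormFn C2 N) :
    IsNormFn C2 (fun y => N (g y)) := h.comp_local (isLocalDiffeo hg)

/-- descent of norm functions -/
theorem isNormFn_of_comp {g : Y → X} (hg : ChartMap g) (hs : Function.Surjective g) {N : X → ℝ}
    (h : IsNormFn C2 (fun y => N (g y))) : IsNormFn C2 N := by
  intro x
  obtain ⟨y, rfl⟩ := hs x
  obtain ⟨Φ, hyΦ, hΦ⟩ := isLocalDiffeo hg y
  obtain ⟨U, k, φ, hyU, hr⟩ := h y
  have hπσ : ∀ z ∈ Φ.target, g (Φ.symm z) = z := by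
    intro z hz
    have h1 : Φ.symm z ∈ Φ.source := Φ.toOpenPartialHomeomorph.map_target hz
    rw [hΦ h1]
    exact Φ.toOpenPartialHomeomorph.right_inv hz
  have hcont : ContinuousOn Φ.symm Φ.target := Φ.symm.contMDiffOn.continuousOn
  obtain ⟨h1, h2⟩ := section_props (isLocalDiffeo hg) Φ.open_target hcont hπσ
  have h3 := hr.comp (σ := Φ.symm) Φ.open_target (h1.mdifferentiableOn (by simp))
    ((contMDiffOn_real h1).of_le le_top) h2
  have hyt : g y ∈ Φ.target := by
    rw [hΦ hyΦ]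
    exact Φ.toOpenPartialHomeomorph.map_source hyΦ
  have hback : Φ.symm (g y) = y := by
    rw [hΦ hyΦ]
    exact Φ.toOpenPartialHomeomorph.left_inv hyΦ
  refine ⟨Φ.target ∩ Φ.symm ⁻¹' U, _, _, ⟨hyt, ?_⟩, h3.congr fun z hz => ?_⟩
  · rw [mem_preimage, hback]
    exact hyU
  · rw [hπσ z hz.1]

end localdiffeo

section orbit

variable {M : Type} [TopologicalSpace M] [ChartedSpace C2 M] [IsManifold 𝓘(ℂ, C2) ω M]
variable (D : XTData M) {N : M → ℝ} {R : ℝ}

/-- product over the orbits of the deck group -/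
def orbN (N : M → ℝ) (x : M) : ℝ := ∏ᶠ k : ℤ, N (D.sh k x)

theorem continuous_f : Continuous D.f := by
  have h : Reg0 ∞ 0 (fun x => (D.f x : ℂ)) := D.f_smooth
  rw [continuous_iff_continuousAt]
  intro x
  have h1 := (h.contDiffAt (chart_mem_atlas C2 x) (mem_chart_target C2 x)).continuousAt
  rw [LB.loc0_zero] at h1
  have h2 : ContinuousAt (fun y => ((D.f ((chartAt C2 x).symm (chartAt C2 x y)) : ℝ) : ℂ)) x :=
    ContinuousAt.comp (f := fun y => chartAt C2 x y) h1
      ((chartAt C2 x).continuousAt (mem_chart_source C2 x))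
  have h3 : ContinuousAt (fun y => ((D.f y : ℝ) : ℂ)) x := by
    refine h2.congr ?_
    filter_upwards [(chartAt C2 x).open_source.mem_nhds (mem_chart_source C2 x)] with y hy
    rw [(chartAt C2 x).left_inv hy]
  exact Complex.continuous_re.continuousAt.comp h3

/-- the finite set of translates which may contribute near a point -/
theorem exists_window (R : ℝ) (x₀ : M) : ∃ I : Finset ℤ, ∀ᶠ x in 𝓝 x₀,
    ∀ k : ℤ, |D.f (D.sh k x)| < R → k ∈ I := by
  refine ⟨Finset.Icc (-⌈R + |D.f x₀| + 1⌉) ⌈R + |D.f x₀| + 1⌉, ?_⟩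
  have h1 : ∀ᶠ x in 𝓝 x₀, |D.f x - D.f x₀| < 1 := by
    have : Continuous fun x => |D.f x - D.f x₀| :=
      ((continuous_f D).sub continuous_const).abs
    exact this.continuousAt.eventually_lt continuousAt_const (by simp)
  filter_upwards [h1] with x hx k hk
  rw [D.f_sh] at hk
  have h2 : |(k : ℝ)| ≤ R + |D.f x₀| + 1 := by
    have h3 : (k : ℝ) = (D.f x + k) - (D.f x - D.f x₀) - D.f x₀ := by ring
    rw [h3]
    calc |D.f x + ↑k - (D.f x - D.f x₀) - D.f x₀|
        ≤ |D.f x + ↑k - (D.f x - D.f x₀)| + |D.f x₀| := abs_sub _ _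
      _ ≤ |D.f x + ↑k| + |D.f x - D.f x₀| + |D.f x₀| := by
          gcongr; exact abs_sub _ _
      _ ≤ R + |D.f x₀| + 1 := by linarith
  rw [abs_le] at h2
  rw [Finset.mem_Icc]
  have h4 := Int.le_ceil (R + |D.f x₀| + 1)
  constructor
  · have : (-(⌈R + |D.f x₀| + 1⌉ : ℤ) : ℝ) ≤ (k : ℝ) := by linarith [h2.1]
    exact_mod_cast this
  · have : (k : ℝ) ≤ (⌈R + |D.f x₀| + 1⌉ : ℤ) := by linarith [h2.2]
    exact_mod_cast this

theorem locallyFinite_mulSupport (hN : ∀ x, R ≤ |D.f x| → N x = 1) :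
    LocallyFinite fun k : ℤ => Function.mulSupport fun x => N (D.sh k x) := by
  intro x₀
  obtain ⟨I, hI⟩ := exists_window D R x₀
  obtain ⟨W, hW, hWo, hx⟩ := mem_nhds_iff.1 hI
  refine ⟨W, hWo.mem_nhds hx, I.finite_toSet.subset ?_⟩
  rintro k ⟨x, hx1, hx2⟩
  by_contra hk
  apply hx1
  apply hN
  by_contra hlt
  exact hk (hW hx2 k (not_le.1 hlt))

theorem isNormFn_orbN (hN : ∀ x, R ≤ |D.f x| → N x = 1) (h : IsNormFn C2 N) :
    IsNormFn C2 (orbN D N) :=
  isNormFn_finprod (fun k => isNormFn_comp (D.chartMap_sh k) h) (locallyFinite_mulSupport D hN)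

theorem orbN_sh (N : M → ℝ) (k : ℤ) (x : M) : orbN D N (D.sh k x) = orbN D N x := by
  unfold orbN
  have : (fun j : ℤ => N (D.sh j (D.sh k x))) = fun j : ℤ => N (D.sh (Equiv.addRight k j) x) := by
    funext j
    rw [← D.sh_add]; rfl
  rw [this]
  exact finprod_comp_equiv (Equiv.addRight k) (f := fun j => N (D.sh j x))

/-- near every point `orbN` is a finite product -/
theorem exists_finset (hN : ∀ x, R ≤ |D.f x| → N x = 1) (x₀ : M) :
    ∃ I : Finset ℤ, (∀ᶠ x in 𝓝 x₀, orbN D N x = ∏ k ∈ I, N (D.sh k x)) ∧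
      ∀ᶠ x in 𝓝 x₀, ∀ k ∉ I, R ≤ |D.f (D.sh k x)| := by
  obtain ⟨I, hI⟩ := exists_window D R x₀
  have h2 : ∀ᶠ x in 𝓝 x₀, ∀ k ∉ I, R ≤ |D.f (D.sh k x)| := by
    filter_upwards [hI] with x hx k hk
    by_contra hlt
    exact hk (hx k (not_le.1 hlt))
  refine ⟨I, ?_, h2⟩
  filter_upwards [h2] with x hx
  refine finprod_eq_prod_of_mulSupport_subset _ fun k hk => ?_
  by_contra hkI
  exact hk (hN _ (hx k hkI))

theorem curvN_prod {ι : Type*} (s : Finset ι) {N : ι → M → ℝ} (h : ∀ i ∈ s, IsNormFn C2 (N i))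
    (x : M) : curvN (fun x => ∏ i ∈ s, N i x) x = ∑ i ∈ s, curvN (N i) x := by
  classical
  induction s using Finset.induction_on with
  | empty =>
    simp only [Finset.prod_empty, Finset.sum_empty]
    have h1 : LocRep C2 (fun _ : M => (1 : ℝ)) univ (fun _ => 1) (fun _ => 0) := by
      have := (locRep_exp (E := C2) (M := M) (φ := fun _ => 0) isOpen_univ
        contMDiffOn_const)
      simpa using this
    rw [curvN_eq h1 (mem_univ x)]
    ext i j
    have h2 : dzb j (fun _ : C2 => (0 : ℂ)) = fun _ => 0 := by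
      funext z; exact FL.dzb_const 0 z j
    simp [ddz, h2]
  | insert a s has ih =>
    simp only [Finset.prod_insert has, Finset.sum_insert has]
    rw [curvN_mul (h a (Finset.mem_insert_self a s))
      (isNormFn_prod s fun i hi => h i (Finset.mem_insert_of_mem hi)),
      ih fun i hi => h i (Finset.mem_insert_of_mem hi)]

/-- the curvature vanishes where `N = 1` -/
theorem curvN_one {N : M → ℝ} (h : IsNormFn C2 N) {x : M} (h1 : N =ᶠ[𝓝 x] fun _ => 1) :
    curvN N x = 0 := by
  rw [curvN_congr h h1]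
  have := curvN_prod (M := M) (∅ : Finset ℤ) (N := fun _ _ => 1) (by simp) x
  simpa using this

theorem curvN_orbN (hN : ∀ x, R ≤ |D.f x| → N x = 1) (h : IsNormFn C2 N) (x : M) :
    (∀ᶠ k : ℤ in cofinite, curvN N (D.sh k x) = 0) ∧
    curvN (orbN D N) x = ∑ᶠ k : ℤ, curvN N (D.sh k x) := by
  obtain ⟨I, hI, hI2⟩ := exists_finset D hN x
  have h3 : ∀ k ∉ I, curvN N (D.sh k x) = 0 := by
    intro k hk
    have h4 := curvN_comp (N := N) h (q := D.sh k) (isNormFn_comp (D.chartMap_sh k) h)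
      (D.continuous_sh k).continuousAt ((D.chartMap_sh k).germ x)
    rw [← h4]
    refine curvN_one (isNormFn_comp (D.chartMap_sh k) h) ?_
    filter_upwards [hI2] with y hy using hN _ (hy k hk)
  have h5 : Function.support (fun k : ℤ => curvN N (D.sh k x)) ⊆ I := by
    intro k hk
    by_contra hkI
    exact hk (h3 k hkI)
  constructor
  · exact I.finite_toSet.subset h5
  · rw [finsum_eq_sum_of_support_subset _ h5,
      curvN_congr (isNormFn_orbN D hN h) hI,
      curvN_prod I fun k _ => isNormFn_comp (D.chartMap_sh k) h]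
    refine Finset.sum_congr rfl fun k _ => ?_
    exact curvN_comp (N := N) h (q := D.sh k) (isNormFn_comp (D.chartMap_sh k) h)
      (D.continuous_sh k).continuousAt ((D.chartMap_sh k).germ x)

end orbit

end Vale.Agent.P267.H466
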