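import Vale.Agent.P267.H466.Flat
import Vale.Agent.P267.H466.Push
import Vale.Agent.P267.H332.Pair.Pair
import Vale.Agent.P267.H622.Reg
import Vale.Agent.P267.H221.Out

/-!
# P267 / AIN0 (helper466): the limit of `α` at the inner end is zero

`(L, a)` is a holomorphic line bundle on the infinite cyclic covering `q : M → X`, trivial at both
ends, `K·L < 0`, and `K` is nef on `X`. A holomorphic section `α` with a nonzero limit at the outer
end has limit `0` at the inner end.
-/

set_option linter.unusedSectionVars false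

open scoped Manifold ContDiff ComplexConjugate Matrix Topology
open MeasureTheory Set Filter

noncomputable section

namespace Vale.Agent.P267.H466

open Vale.Agent.P267.FL Vale.Agent.P267.XT Vale.Agent.P267.H757 Vale.Agent.P267.H332

/-! ### interfaces -/

/-- D-LBNF: the squared norm of a holomorphic section is a norm function with curvature `chern` -/
def LBNF (M : Type) [TopologicalSpace M] [ChartedSpace C2 M] : Prop :=
  ∀ (ι : Type) [Fintype ι] [DecidableEq ι] (L : LB M ι) (a : M → Fin 2 → ℂ)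
    (s : M → EuclideanSpace ℂ ι), L.IsHol a → Reg0 ∞ 0 s → L.Sec s →
    (∀ x i, L.db0 a 0 s x i = 0) → Dense {x | s x ≠ 0} →
    IsNormFn C2 (fun x => ‖s x‖ ^ 2) ∧ cF (fun x => ‖s x‖ ^ 2) = L.chern a

/-- integration over the fibres -/
def PushInt {M X : Type} [TopologicalSpace M] [ChartedSpace C2 M] [TopologicalSpace X]
    [ChartedSpace C2 X] (D : XTData M) (q : M → X) : Prop :=
  ∀ (b : M → ℂ) (b' : X → ℂ), Reg2 ∞ 1 b → HasCompactSupport b →
    (∀ x, b' (q x) = ∑ᶠ k : ℤ, b (D.sh k x)) → intX b' = intX b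

/-- `K` is nef, in terms of norm functions -/
def NefNF {X : Type} [TopologicalSpace X] [ChartedSpace C2 X] {ι : Type} [Fintype ι]
    [DecidableEq ι] (LK : LB X ι) : Prop :=
  ∀ N : X → ℝ, IsNormFn C2 N →
    0 ≤ (-(1 / (4 * (Real.pi : ℂ) ^ 2)) * intX ((cF N).wedge LK.curv)).re

/-- curvature forms are smooth and closed -/
def CurvOK (X : Type) [TopologicalSpace X] [ChartedSpace C2 X] : Prop :=
  ∀ (ι : Type) [Fintype ι] [DecidableEq ι] (L : LB X ι), L.curv.Smooth ∧ L.curv.Closed

/-! ### push-forward of a norm function -/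

section push

variable {M X : Type} [TopologicalSpace M] [ChartedSpace C2 M] [IsManifold 𝓘(ℂ, C2) ω M]
  [TopologicalSpace X] [ChartedSpace C2 X] [IsManifold 𝓘(ℂ, C2) ω X]

omit [IsManifold 𝓘(ℂ, C2) ω M] in
theorem isCompact_abs_le (D : XTData M) (R : ℝ) : IsCompact {x | |D.f x| ≤ R} := by
  have := D.f_proper (-R) R
  convert this using 1
  ext x
  simp [abs_le]

theorem curvN_eq_zero (D : XTData M) {N : M → ℝ} {R : ℝ} (hN : ∀ x, R ≤ |D.f x| → N x = 1)
    (h : IsNormFn C2 N) {x : M} (hx : R < |D.f x|) : curvN N x = 0 := by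
  refine curvN_one h ?_
  have : ∀ᶠ y in 𝓝 x, R < |D.f y| :=
    ((continuous_f D).abs.continuousAt).eventually_const_lt hx
  filter_upwards [this] with y hy using hN y hy.le

/-- PUSH-FORWARD of a norm function along an infinite cyclic covering. -/
theorem exists_push {q : M → X} (hq : ChartMap q) (hs : Function.Surjective q) (D : XTData M)
    (orb : ∀ x y, q x = q y → ∃ k : ℤ, y = D.sh k x) {N : M → ℝ} {R : ℝ}
    (hN : ∀ x, R ≤ |D.f x| → N x = 1) (h : IsNormFn C2 N) :
    ∃ N' : X → ℝ, IsNormFn C2 N' ∧ (∀ x, N' (q x) = ∏ᶠ k : ℤ, N (D.sh k x)) ∧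
      ∀ x, curvN N' (q x) = ∑ᶠ k : ℤ, curvN N (D.sh k x) := by
  obtain ⟨N', hN'⟩ := (exists_desc hs (u := orbN D N) (by
    intro x y hxy
    obtain ⟨k, rfl⟩ := orb x y hxy
    exact (orbN_sh D N k x).symm)).exists
  have hcomp : (fun x => N' (q x)) = orbN D N := funext fun x => (hN' x).symm
  have h1 : IsNormFn C2 (fun x => N' (q x)) := by
    rw [hcomp]
    exact isNormFn_orbN D hN h
  have h2 : IsNormFn C2 N' := isNormFn_of_comp hq hs h1
  refine ⟨N', h2, fun x => (hN' x).symm, fun x => ?_⟩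
  rw [← curvN_comp h2 h1 hq.cont.continuousAt (hq.germ x), hcomp]
  exact (curvN_orbN D hN h x).2

/-- the pairing of the push-forward with a form on `X` -/
theorem intX_push [T2Space M] {q : M → X} (D : XTData M)
    (hqD : ∀ k x, q (D.sh k x) = q x) (hint : PushInt D q) {N : M → ℝ} {R : ℝ}
    (hN : ∀ x, R ≤ |D.f x| → N x = 1) (h : IsNormFn C2 N) {N' : X → ℝ}
    (hN' : ∀ x, curvN N' (q x) = ∑ᶠ k : ℤ, curvN N (D.sh k x)) (η : TwoF X)
    (hη : (pull2 q η).Smooth) :
    intX ((cF N').wedge η) = intX ((cF N).wedge (pull2 q η)) := by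
  refine hint _ _ (reg2_wedge (cF_smooth h) hη) ?_ fun x => ?_
  · refine HasCompactSupport.intro (isCompact_abs_le D R) fun x hx => ?_
    have : curvN N x = 0 := curvN_eq_zero D hN h (not_le.1 hx)
    simp [TwoF.wedge, cF, this]
  · have hfin : (Function.support fun k : ℤ => curvN N (D.sh k x)).Finite :=
      (curvN_orbN D hN h x).1
    have h1 : ∀ k : ℤ, ((cF N).wedge (pull2 q η)) (D.sh k x) =
        -(curvN N (D.sh k x) 0 0 * η.f11 (q x) 1 1 + curvN N (D.sh k x) 1 1 * η.f11 (q x) 0 0 -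
          curvN N (D.sh k x) 0 1 * η.f11 (q x) 1 0 - curvN N (D.sh k x) 1 0 * η.f11 (q x) 0 1) := by
      intro k
      simp only [TwoF.wedge, cF, pull2, hqD, zero_mul, add_zero, zero_sub]
    have h2 : (cF N').wedge η (q x) =
        -(curvN N' (q x) 0 0 * η.f11 (q x) 1 1 + curvN N' (q x) 1 1 * η.f11 (q x) 0 0 -
          curvN N' (q x) 0 1 * η.f11 (q x) 1 0 - curvN N' (q x) 1 0 * η.f11 (q x) 0 1) := by
      simp only [TwoF.wedge, cF, zero_mul, add_zero, zero_sub]
    rw [h2, hN' x]
    simp only [h1]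
    set T := hfin.toFinset with hT
    have h3 : (∑ᶠ k : ℤ, curvN N (D.sh k x)) = ∑ k ∈ T, curvN N (D.sh k x) :=
      finsum_eq_sum _ hfin
    rw [h3, finsum_eq_sum_of_support_subset (s := T)]
    · simp only [Matrix.sum_apply, Finset.sum_mul, ← Finset.sum_add_distrib,
        ← Finset.sum_sub_distrib, ← Finset.sum_neg_distrib]
    · intro k hk
      rw [hT, Finite.coe_toFinset]
      intro h0
      exact hk (by simp [h0])

end push

/-! ### the theorem -/

section main

variable {M X : Type} [TopologicalSpace M] [ChartedSpace C2 M] [IsManifold 𝓘(ℂ, C2) ω M]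
  [TopologicalSpace X] [ChartedSpace C2 X] [IsManifold 𝓘(ℂ, C2) ω X]

variable {ι : Type} [Fintype ι] [DecidableEq ι] {ι' : Type} [Fintype ι'] [DecidableEq ι']

/-- the one-form `a - ā` -/
def connF (a : M → Fin 2 → ℂ) : OneF M := ⟨fun y i => -conj (a y i), a⟩

theorem chern_eq (L : LB M ι) (a : M → Fin 2 → ℂ) : L.chern a = L.curv + (connF a).d := by
  refine twoF_ext (fun x => rfl) (fun x => rfl) fun x => rfl

theorem connF_smooth {a : M → Fin 2 → ℂ} (ha : Reg1 ∞ 0 a) : (connF a).Smooth := by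
  refine ⟨?_, ha⟩
  have h := H469.r1cj ha
  have : (fun y i => -conj (a y i)) = (-1 : ℂ) • H469.cj1 a := by
    funext y i
    simp [H469.cj1]
  show Reg10 ∞ (fun y i => -conj (a y i))
  rw [this]
  intro e he
  have h2 := h e he
  have h3 : loc10 e ((-1 : ℂ) • H469.cj1 a) = fun z => (-1 : ℂ) • loc10 e (H469.cj1 a) z := by
    funext z i
    exact H469.loc10_smul e z (-1) _ i
  rw [h3]
  exact h2.const_smul (-1 : ℂ)

omit [IsManifold 𝓘(ℂ, C2) ω M] in
theorem curv_eq_zero (D : XTData M) {L : LB M ι} {i₀ : ι} {R : ℝ} (hf : Continuous D.f)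
    (triv : ∀ x, R ≤ |D.f x| → L.P x = Matrix.single i₀ i₀ 1) {x : M} (hx : R < |D.f x|) :
    L.curv.f20 x = 0 ∧ L.curv.f11 x = 0 ∧ L.curv.f02 x = 0 := by
  have hev : ∀ᶠ y in 𝓝 x, L.P y = Matrix.single i₀ i₀ 1 := by
    have : ∀ᶠ y in 𝓝 x, R < |D.f y| := (hf.abs.continuousAt).eventually_const_lt hx
    filter_upwards [this] with y hy using triv y hy.le
  have hc : Tendsto (chartAt C2 x).symm (𝓝 (chartAt C2 x x)) (𝓝 x) := by
    have := (chartAt C2 x).continuousAt_symm (mem_chart_target C2 x)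
    rw [ContinuousAt, (chartAt C2 x).left_inv (mem_chart_source C2 x)] at this
    exact this
  have h1 : ∀ i j k, dbar0 0 (fun y => L.P y i j) x k = 0 := by
    intro i j k
    unfold dbar0
    rw [LB.loc0_zero]
    have : ((fun y => L.P y i j) ∘ (chartAt C2 x).symm) =ᶠ[𝓝 (chartAt C2 x x)]
        fun _ => Matrix.single i₀ i₀ (1 : ℂ) i j := by
      filter_upwards [hc.eventually hev] with z hz
      simp [hz]
    rw [FL.dzb_congr this, FL.dzb_const]
  have h2 : ∀ i j k, del0 (fun y => L.P y i j) x k = 0 := by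
    intro i j k
    unfold del0
    have : (fun z => L.P ((chartAt C2 x).symm z) i j) =ᶠ[𝓝 (chartAt C2 x x)]
        fun _ => Matrix.single i₀ i₀ (1 : ℂ) i j := by
      filter_upwards [hc.eventually hev] with z hz
      rw [hz]
    rw [FL.dz_congr this, FL.dz_const]
  have h3 : ∀ k, (Matrix.of fun i j => dbar0 0 (fun y => L.P y i j) x k) = 0 := by
    intro k; ext i j; simp [h1]
  have h4 : ∀ k, (Matrix.of fun i j => del0 (fun y => L.P y i j) x k) = 0 := by
    intro k; ext i j; simp [h2]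
  refine ⟨?_, ?_, ?_⟩
  · simp only [LB.curv, LB.F20, h4]; simp
  · simp only [LB.curv, LB.F11, h3, h4]
    ext k l
    simp
  · simp only [LB.curv, LB.F02, h3]; simp

theorem norm_e₀ (i₀ : ι) : ‖(e₀ i₀ : EuclideanSpace ℂ ι)‖ = 1 := by
  unfold e₀
  simp

/-- **AIN0.** -/
theorem ain_zero [T2Space M] {q : M → X} (hq : ChartMap q) (hs : Function.Surjective q) (D : XTData M)
    (hqD : ∀ k x, q (D.sh k x) = q x) (orb : ∀ x y, q x = q y → ∃ k : ℤ, y = D.sh k x)
    -- inputs from other packages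
    (hLBNF : LBNF M) (hint : PushInt D q) (hI : IntAx M) (hcM : CurvOK M)
    -- `K` is nef on `X`
    {LK : LB X ι'} (hnef : NefNF LK)
    -- the bundle
    {L : LB M ι} {i₀ : ι} {a : M → Fin 2 → ℂ} {R : ℝ}
    (hol : L.IsHol a) (triv : ∀ x, R ≤ |D.f x| → L.P x = Matrix.single i₀ i₀ 1)
    (hKx : (RR.isec (hq.lb LK) L).re < 0)
    -- the section
    {α : M → EuclideanSpace ℂ ι} (hreg : Reg0 ∞ 0 α) (hsec : L.Sec α)
    (hhol : ∀ x i, L.db0 a 0 α x i = 0) (hdense : Dense {x | α x ≠ 0}) {b₁ b₂ : ℂ} (hb₁ : b₁ ≠ 0)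
    (h₁ : Tendsto (fun x => α x i₀) (comap D.f atTop) (𝓝 b₁))
    (h₂ : Tendsto (fun x => α x i₀) (comap D.f atBot) (𝓝 b₂)) : b₂ = 0 := by
  by_contra hb₂
  obtain ⟨R', hRR', hR'0, u, hu, hol', hreg', hsec', hhol', hend, hend'⟩ :=
    ends_flatten D hol triv hreg hsec hhol hb₁ hb₂ h₁ h₂
  have hdense' : Dense {x | gsec u α x ≠ 0} := by
    have : {x | gsec u α x ≠ 0} = {x | α x ≠ 0} := by
      ext x
      simp only [mem_ofPred_eq, ne_eq, gsec_eq_zero]
    rw [this]; exact hdense
  obtain ⟨hNF, hcF⟩ := hLBNF ι L (gauge a u) (gsec u α) hol' hreg' hsec' hhol' hdense'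
  set N : M → ℝ := fun x => ‖gsec u α x‖ ^ 2 with hNdef
  have hN1 : ∀ x, R' ≤ |D.f x| → N x = 1 := by
    intro x hx
    rw [hNdef]
    simp only [hend x hx, norm_e₀]
    norm_num
  obtain ⟨N', hN', _, hcN'⟩ := exists_push hq hs D orb hN1 hNF
  set η : TwoF M := pull2 q LK.curv with hη
  have hηc : η = (hq.lb LK).curv := (hq.lb_curv LK).symm
  have hηs : η.Smooth := by rw [hηc]; exact (hcM ι' _).1
  have hηcl : η.Closed := by rw [hηc]; exact (hcM ι' _).2
  have h3 := intX_push D hqD hint hN1 hNF hcN' LK.curv hηs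
  rw [hcF, chern_eq] at h3
  have hA := connF_smooth hol'.smooth
  have hsplit : (L.curv + (connF (gauge a u)).d).wedge η =
      fun x => L.curv.wedge η x + (connF (gauge a u)).d.wedge η x := by
    funext x
    simp only [TwoF.wedge, TwoF.f20_add, TwoF.f11_add, TwoF.f02_add, Pi.add_apply,
      Matrix.add_apply]
    ring
  have hsupp1 : IsCompact (supp1 (connF (gauge a u))) := by
    refine (isCompact_abs_le D R').of_isClosed_subset isClosed_closure ?_
    refine closure_minimal ?_ (isClosed_le (continuous_f D).abs continuous_const)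
    intro x hx
    by_contra hlt
    have h0 : gauge a u x = 0 := funext fun i => hend' x i (not_le.1 hlt).le
    rcases hx with hx | hx
    · exact hx (by funext i; simp [connF, h0])
    · exact hx h0
  have hst : intX ((connF (gauge a u)).d.wedge η) = 0 := hI.stokes _ _ hA hsupp1 hηs hηcl
  have hsm : (connF (gauge a u)).d.Smooth := by
    refine ⟨H469.reg_del10 hA.s10, ?_, H469.reg_dbar1 hA.s01⟩
    have e1 := H469.reg_del1 hA.s01
    have e2 := H469.reg_dbar10 hA.s10
    intro e he i j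
    have : (fun z => loc11 e (connF (gauge a u)).d.f11 z i j) =
        fun z => loc11 e (del1 (connF (gauge a u)).f01) z i j +
          loc11 e (dbar10 (connF (gauge a u)).f10) z i j := by
      funext z
      exact H469.loc11_add e z _ _ i j
    rw [this]
    exact (e1 e he i j).add (e2 e he i j)
  have hsc1 : HasCompactSupport (L.curv.wedge η) := by
    refine HasCompactSupport.intro (isCompact_abs_le D R) fun x hx => ?_
    obtain ⟨h5, h6, h7⟩ := curv_eq_zero D (continuous_f D) triv (not_le.1 hx)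
    simp [TwoF.wedge, h5, h6, h7]
  have hsc2 : HasCompactSupport ((connF (gauge a u)).d.wedge η) := by
    have h8 : (connF (gauge a u)).d.wedge η =
        fun x => (L.curv + (connF (gauge a u)).d).wedge η x - L.curv.wedge η x := by
      rw [hsplit]; funext x; ring
    refine HasCompactSupport.intro (isCompact_abs_le D R') fun x hx => ?_
    rw [h8]
    have h9 : (L.curv + (connF (gauge a u)).d).wedge η x = 0 := by
      rw [← chern_eq, ← hcF]
      have : curvN N x = 0 := curvN_eq_zero D hN1 hNF (not_le.1 hx)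
      simp [TwoF.wedge, cF, this]
    obtain ⟨h5, h6, h7⟩ := curv_eq_zero D (continuous_f D) triv
      (lt_of_le_of_lt hRR' (not_le.1 hx))
    simp only [h9]
    simp [TwoF.wedge, h5, h6, h7]
  rw [hsplit, hI.add _ _ (reg2_wedge (hcM ι L).1 hηs) (reg2_wedge hsm hηs) hsc1 hsc2, hst,
    add_zero] at h3
  have h10 := hnef N' hN'
  rw [h3, wedge_comm', hηc] at h10
  exact absurd h10 (not_le.2 hKx)

end main

end Vale.Agent.P267.H466
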