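import Vale.Agent.P267.H466.Gauge

/-!
# P267 / AIN0 (helper466): flattening of the ends

If a holomorphic section `α` of `(L, a)`, `L` trivial at both ends, has nonzero limits at both ends,
then after a change of gauge `α` is constant and `a = 0` at both ends.
-/

set_option linter.unusedSectionVars false

open scoped Manifold ContDiff ComplexConjugate Matrix Topology
open MeasureTheory Set Filter

noncomputable section

namespace Vale.Agent.P267.H466

open Vale.Agent.P267.FL Vale.Agent.P267.XT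

variable {M : Type} [TopologicalSpace M] [ChartedSpace C2 M] [IsManifold 𝓘(ℂ, C2) ω M]

/-- real smooth functions in charts -/
theorem real_contDiffAt {n : WithTop ℕ∞} {f : M → ℝ} (hf : Reg0 n 0 (fun x => (f x : ℂ)))
    {e : Ch M} (he : e ∈ atlas C2 M) {z : C2} (hz : z ∈ e.target) :
    ContDiffAt ℝ n (fun z => f (e.symm z)) z := by
  have h := hf.contDiffAt he hz
  rw [LB.loc0_zero] at h
  exact Complex.reCLM.contDiff.contDiffAt.comp z h

theorem continuous_of_reg {n : WithTop ℕ∞} {V : Type*} [NormedAddCommGroup V] [NormedSpace ℂ V]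
    {s : M → V} (hs : Reg0 n 0 s) : Continuous s := by
  rw [continuous_iff_continuousAt]
  intro x
  have h := (hs.contDiffAt (chart_mem_atlas C2 x) (mem_chart_target C2 x)).continuousAt
  rw [LB.loc0_zero] at h
  have h2 : ContinuousAt (fun y => (s ∘ (chartAt C2 x).symm) (chartAt C2 x y)) x :=
    ContinuousAt.comp (f := fun y => chartAt C2 x y) h
      ((chartAt C2 x).continuousAt (mem_chart_source C2 x))
  refine h2.congr ?_
  filter_upwards [(chartAt C2 x).open_source.mem_nhds (mem_chart_source C2 x)] with y hy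
  simp [(chartAt C2 x).left_inv hy]

theorem continuous_real {n : WithTop ℕ∞} {f : M → ℝ} (hf : Reg0 n 0 (fun x => (f x : ℂ))) :
    Continuous f := by
  have := Complex.continuous_re.comp (continuous_of_reg hf)
  exact this

/-- the logarithm of a function near a nonzero constant -/
theorem exp_log_near {b g : ℂ} (hb : b ≠ 0) (hg : ‖g - b‖ < ‖b‖) :
    g / b ∈ Complex.slitPlane ∧ Complex.exp (Complex.log b + Complex.log (g / b)) = g := by
  have hb' : 0 < ‖b‖ := norm_pos_iff.2 hb
  have h1 : ‖g / b - 1‖ < 1 := by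
    have : g / b - 1 = (g - b) / b := by field_simp
    rw [this, norm_div, div_lt_one hb']
    exact hg
  have h2 : g / b ∈ Complex.slitPlane := by
    have := Complex.mem_slitPlane_of_norm_lt_one h1
    simpa using this
  refine ⟨h2, ?_⟩
  have h3 : g / b ≠ 0 := Complex.slitPlane_ne_zero h2
  rw [Complex.exp_add, Complex.exp_log hb, Complex.exp_log h3]
  field_simp

theorem exists_end_log {g : M → ℂ} (hg : Reg0 ∞ 0 g) {φ : M → ℝ}
    (hφ : Reg0 ∞ 0 (fun x => (φ x : ℂ))) {b : ℂ} (hb : b ≠ 0) {T : ℝ}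
    (hT : ∀ x, T ≤ φ x → ‖g x - b‖ < ‖b‖) :
    ∃ v : M → ℂ, Reg0 ∞ 0 v ∧ (∀ x, φ x ≤ T + 1 → v x = 0) ∧
      ∀ x, T + 2 ≤ φ x → Complex.exp (v x) = g x := by
  refine ⟨fun x => (Real.smoothTransition (φ x - T - 1) : ℂ) *
    (Complex.log b + Complex.log (g x / b)), ?_, ?_, ?_⟩
  · rw [reg0_iff]
    intro x
    set e := chartAt C2 x with he
    have hat : e ∈ atlas C2 M := chart_mem_atlas C2 x
    have hx : e x ∈ e.target := mem_chart_target C2 x
    have hxs : x ∈ e.source := mem_chart_source C2 x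
    rw [LB.loc0_zero]
    have hφc : ContinuousAt (fun z => φ (e.symm z)) (e x) := (real_contDiffAt hφ hat hx).continuousAt
    rcases lt_or_ge T (φ x) with h | h
    · -- near `x` everything is smooth
      have h1 : ContDiffAt ℝ ∞ (fun z => (Real.smoothTransition (φ (e.symm z) - T - 1) : ℂ))
          (e x) := by
        have h2 : ContDiffAt ℝ ∞ (fun z => φ (e.symm z) - T - 1) (e x) :=
          ((real_contDiffAt hφ hat hx).sub contDiffAt_const).sub contDiffAt_const
        have h3 : ContDiffAt ℝ ∞ (fun z => Real.smoothTransition (φ (e.symm z) - T - 1)) (e x) :=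
          (Real.smoothTransition.contDiffAt).comp (e x) h2
        exact Complex.ofRealCLM.contDiff.contDiffAt.comp (e x) h3
      have h4 : ContDiffAt ℝ ∞ (fun z => g (e.symm z) / b) (e x) := by
        have := hg.contDiffAt hat hx
        rw [LB.loc0_zero] at this
        have h5 : ContDiffAt ℝ ∞ (fun z => b⁻¹ * g (e.symm z)) (e x) := contDiffAt_const.mul this
        refine h5.congr_of_eventuallyEq (Eventually.of_forall fun z => ?_)
        simp only [div_eq_inv_mul]
      have h5 : ContDiffAt ℝ ∞ (fun z => Complex.log (g (e.symm z) / b)) (e x) := by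
        have hs : (fun z => g (e.symm z) / b) (e x) ∈ Complex.slitPlane := by
          simp only [e.left_inv hxs]
          exact (exp_log_near hb (hT x h.le)).1
        have hl : ContDiffAt ℂ ∞ Complex.log ((fun z => g (e.symm z) / b) (e x)) :=
          Complex.contDiffAt_log hs
        exact (hl.restrict_scalars ℝ).comp (e x) h4
      exact h1.mul (contDiffAt_const.add h5)
    · -- near `x` the function vanishes
      have h1 : ∀ᶠ z in 𝓝 (e x), φ (e.symm z) < T + 1 := by
        apply hφc.eventually_lt continuousAt_const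
        simp only [e.left_inv hxs]
        linarith
      have h2 : ((fun x => (Real.smoothTransition (φ x - T - 1) : ℂ) *
          (Complex.log b + Complex.log (g x / b))) ∘ e.symm) =ᶠ[𝓝 (e x)] fun _ => 0 := by
        filter_upwards [h1] with z hz
        simp only [Function.comp_apply]
        rw [Real.smoothTransition.zero_of_nonpos (by linarith)]
        simp
      exact contDiffAt_const.congr_of_eventuallyEq h2
  · intro x hx
    simp only
    rw [Real.smoothTransition.zero_of_nonpos (by linarith)]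
    simp
  · intro x hx
    simp only
    rw [Real.smoothTransition.one_of_one_le (by linarith), Complex.ofReal_one, one_mul]
    exact (exp_log_near hb (hT x (by linarith))).2

variable {ι : Type} [Fintype ι] [DecidableEq ι]

/-- the constant section of the trivial bundle -/
def e₀ (i₀ : ι) : EuclideanSpace ℂ ι := EuclideanSpace.single i₀ 1

omit [TopologicalSpace M] [ChartedSpace C2 M] [IsManifold 𝓘(ℂ, C2) ω M] in
theorem act_single (i₀ : ι) (v : EuclideanSpace ℂ ι) :
    LB.act (Matrix.single i₀ i₀ (1 : ℂ)) v = v i₀ • e₀ i₀ := by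
  unfold LB.act e₀
  ext j
  rw [PiLp.toLp_apply, PiLp.smul_apply, PiLp.single_apply]
  simp only [Matrix.mulVec, dotProduct, Matrix.single_apply, smul_eq_mul]
  by_cases hj : j = i₀
  · subst hj
    simp
  · simp [hj, Ne.symm hj]

theorem e₀_ne_zero (i₀ : ι) : (e₀ i₀ : EuclideanSpace ℂ ι) ≠ 0 := by
  unfold e₀
  simp

/-- THE FLATTENING OF THE ENDS. -/
theorem ends_flatten (D : XTData M) {L : LB M ι} {i₀ : ι} {a : M → Fin 2 → ℂ} {R : ℝ}
    (hol : L.IsHol a) (triv : ∀ x, R ≤ |D.f x| → L.P x = Matrix.single i₀ i₀ 1)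
    {α : M → EuclideanSpace ℂ ι} (hreg : Reg0 ∞ 0 α) (hsec : L.Sec α)
    (hhol : ∀ x i, L.db0 a 0 α x i = 0) {b₁ b₂ : ℂ} (hb₁ : b₁ ≠ 0) (hb₂ : b₂ ≠ 0)
    (h₁ : Tendsto (fun x => α x i₀) (comap D.f atTop) (𝓝 b₁))
    (h₂ : Tendsto (fun x => α x i₀) (comap D.f atBot) (𝓝 b₂)) :
    ∃ R' : ℝ, R ≤ R' ∧ 0 < R' ∧ ∃ u : M → ℂ, Reg0 ∞ 0 u ∧ L.IsHol (gauge a u) ∧
      Reg0 ∞ 0 (gsec u α) ∧ L.Sec (gsec u α) ∧ (∀ x i, L.db0 (gauge a u) 0 (gsec u α) x i = 0) ∧
      (∀ x, R' ≤ |D.f x| → gsec u α x = e₀ i₀) ∧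
      (∀ x i, R' ≤ |D.f x| → gauge a u x i = 0) := by
  have hg : Reg0 ∞ 0 (fun x => α x i₀) := by
    intro e he
    have h := hreg e he
    rw [LB.loc0_zero] at h ⊢
    exact (PiLp.proj (𝕜 := ℝ) 2 (fun _ : ι => ℂ) i₀).contDiff.comp_contDiffOn h
  -- thresholds
  have hb₁' : 0 < ‖b₁‖ := norm_pos_iff.2 hb₁
  have hb₂' : 0 < ‖b₂‖ := norm_pos_iff.2 hb₂
  obtain ⟨T₁, hT₁⟩ : ∃ T₁ : ℝ, ∀ x, T₁ ≤ D.f x → ‖α x i₀ - b₁‖ < ‖b₁‖ := by
    have := h₁.eventually (Metric.ball_mem_nhds b₁ hb₁')
    rw [eventually_comap] at this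
    obtain ⟨T, hT⟩ := eventually_atTop.1 this
    exact ⟨T, fun x hx => by simpa [dist_eq_norm] using hT (D.f x) hx x rfl⟩
  obtain ⟨T₂, hT₂⟩ : ∃ T₂ : ℝ, ∀ x, D.f x ≤ T₂ → ‖α x i₀ - b₂‖ < ‖b₂‖ := by
    have := h₂.eventually (Metric.ball_mem_nhds b₂ hb₂')
    rw [eventually_comap] at this
    obtain ⟨T, hT⟩ := eventually_atBot.1 this
    exact ⟨T, fun x hx => by simpa [dist_eq_norm] using hT (D.f x) hx x rfl⟩
  set T : ℝ := max (max T₁ (-T₂)) (max R 0) with hTd
  have hTT₁ : T₁ ≤ T := (le_max_left _ _).trans (le_max_left _ _)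
  have hTT₂ : -T₂ ≤ T := (le_max_right _ _).trans (le_max_left _ _)
  have hTR : R ≤ T := (le_max_left _ _).trans (le_max_right _ _)
  have hT0 : 0 ≤ T := (le_max_right _ _).trans (le_max_right _ _)
  obtain ⟨v₁, hv₁, hv₁0, hv₁1⟩ := exists_end_log hg D.f_smooth hb₁ (T := T)
    fun x hx => hT₁ x (hTT₁.trans hx)
  have hfn : Reg0 ∞ 0 (fun x => ((-D.f x : ℝ) : ℂ)) := by
    have := reg0_neg D.f_smooth
    simpa using this
  obtain ⟨v₂, hv₂, hv₂0, hv₂1⟩ := exists_end_log hg hfn hb₂ (T := T)
    fun x hx => hT₂ x (by linarith)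
  have hu : Reg0 ∞ 0 (fun x => v₁ x + v₂ x) := by
    intro e he
    have h1 := hv₁ e he
    have h2 := hv₂ e he
    rw [LB.loc0_zero] at h1 h2 ⊢
    exact h1.add h2
  have hconst : ∀ x, T + 2 ≤ |D.f x| → gsec (fun x => v₁ x + v₂ x) α x = e₀ i₀ := by
    intro x hx
    have hexp : Complex.exp (v₁ x + v₂ x) = α x i₀ := by
      rcases abs_cases (D.f x) with ⟨h, _⟩ | ⟨h, _⟩
      · rw [h] at hx
        rw [hv₂0 x (by linarith), add_zero]
        exact hv₁1 x hx
      · rw [h] at hx
        rw [hv₁0 x (by linarith), zero_add]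
        exact hv₂1 x hx
    have hα : α x = α x i₀ • e₀ i₀ := by
      conv_lhs => rw [← hsec x, triv x (by linarith), act_single]
    unfold gsec
    rw [hα, smul_smul]
    have : (α x i₀ • e₀ i₀ : EuclideanSpace ℂ ι) i₀ = α x i₀ := by
      rw [← hα]
    rw [Complex.exp_neg, hexp, inv_mul_cancel₀, one_smul]
    rw [← hexp]
    exact Complex.exp_ne_zero _
  refine ⟨T + 3, by linarith, by linarith, fun x => v₁ x + v₂ x, hu, isHol_gauge hol hu,
    gsec_reg hu hreg, gsec_sec hsec _, ?_, fun x hx => hconst x (by linarith), ?_⟩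
  · intro x i
    rw [db0_gauge a hu hreg hsec, hhol x i, smul_zero]
  · intro x i hx
    have hz : L.db0 (gauge a fun x => v₁ x + v₂ x) 0 (gsec (fun x => v₁ x + v₂ x) α) x i = 0 := by
      rw [db0_gauge a hu hreg hsec, hhol x i, smul_zero]
    have hfc : Continuous D.f := continuous_real D.f_smooth
    have hev : ∀ᶠ y in 𝓝 x, gsec (fun x => v₁ x + v₂ x) α y = e₀ i₀ := by
      have : ∀ᶠ y in 𝓝 x, T + 2 < |D.f y| :=
        (hfc.abs.continuousAt).eventually_const_lt (by linarith)
      filter_upwards [this] with y hy using hconst y hy.le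
    have hd : dbar0 0 (gsec (fun x => v₁ x + v₂ x) α) x i = 0 := by
      unfold dbar0
      rw [LB.loc0_zero]
      have : (gsec (fun x => v₁ x + v₂ x) α ∘ (chartAt C2 x).symm) =ᶠ[𝓝 (chartAt C2 x x)]
          fun _ => e₀ i₀ := by
        have hc : Tendsto (chartAt C2 x).symm (𝓝 (chartAt C2 x x)) (𝓝 x) := by
          have := (chartAt C2 x).continuousAt_symm (mem_chart_target C2 x)
          rw [ContinuousAt, (chartAt C2 x).left_inv (mem_chart_source C2 x)] at this
          exact this
        filter_upwards [hc.eventually hev] with z hz using hz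
      rw [FL.dzb_congr this, FL.dzb_const]
    unfold LB.db0 at hz
    rw [hd] at hz
    have h0 : LB.act (L.P x) (0 : EuclideanSpace ℂ ι) = 0 := by
      have := act_smul (L.P x) 0 (0 : EuclideanSpace ℂ ι)
      simpa using this
    rw [h0, zero_add, hconst x (by linarith), smul_eq_zero] at hz
    exact hz.resolve_right (e₀_ne_zero i₀)

end Vale.Agent.P267.H466
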