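import Vale.Agent.P267.H399.Calc
import Vale.Agent.P267.H469.Del2
import Vale.Agent.P267.H877.Trans

/-!
# P267 / AIN0 (helper466): change of gauge of a holomorphic structure

`(L, a)` with section `α` is isomorphic to `(L, a + ∂̄u)` with section `e^{-u} α`.
-/

set_option linter.unusedSectionVars false

open scoped Manifold ContDiff ComplexConjugate Matrix Topology
open MeasureTheory Set Filter

noncomputable section

namespace Vale.Agent.P267.H466

open Vale.Agent.P267.FL Vale.Agent.P267.XT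

variable {X : Type*} [TopologicalSpace X] [ChartedSpace C2 X] [IsManifold 𝓘(ℂ, C2) ω X]
variable {V : Type*} [NormedAddCommGroup V] [NormedSpace ℂ V]

theorem diffAt {n : WithTop ℕ∞} (hn : 1 ≤ n) {κ : ℤ} {s : X → V} (hs : Reg0 n κ s) (x : X) :
    DifferentiableAt ℝ (loc0 κ (chartAt C2 x) s) (chartAt C2 x x) :=
  (hs.contDiffAt (chart_mem_atlas C2 x) (mem_chart_target C2 x)).differentiableAt
    (by rintro rfl; simp at hn)

omit [IsManifold 𝓘(ℂ, C2) ω X] in
theorem loc0_smul_fun (κ : ℤ) (e : Ch X) (φ : X → ℂ) (s : X → V) :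
    loc0 κ e (fun x => φ x • s x) = fun z => loc0 0 e φ z • loc0 κ e s z := by
  funext z
  simp only [loc0, zpow_zero, one_smul]
  rw [smul_comm]

theorem reg0_smul {n : WithTop ℕ∞} {κ : ℤ} {φ : X → ℂ} {s : X → V} (hφ : Reg0 n 0 φ)
    (hs : Reg0 n κ s) : Reg0 n κ (fun x => φ x • s x) := by
  intro e he
  rw [loc0_smul_fun]
  exact (hφ e he).smul (hs e he)

theorem dbar0_smul {n : WithTop ℕ∞} (hn : 1 ≤ n) {κ : ℤ} {φ : X → ℂ} {s : X → V}
    (hφ : Reg0 n 0 φ) (hs : Reg0 n κ s) (x : X) (i : Fin 2) :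
    dbar0 κ (fun x => φ x • s x) x i = φ x • dbar0 κ s x i + dbar0 0 φ x i • s x := by
  unfold dbar0
  rw [loc0_smul_fun, FL.dzb_smul (diffAt hn hφ x) (diffAt hn hs x), H469.loc0_at, H469.loc0_at]

theorem reg0_cexp {n : WithTop ℕ∞} {u : X → ℂ} (hu : Reg0 n 0 u) :
    Reg0 n 0 (fun x => Complex.exp (u x)) := by
  intro e he
  have h := hu e he
  rw [LB.loc0_zero] at h ⊢
  exact h.cexp

theorem reg0_neg {n : WithTop ℕ∞} {κ : ℤ} {u : X → V} (hu : Reg0 n κ u) :
    Reg0 n κ (fun x => -u x) := by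
  intro e he
  have : loc0 κ e (fun x => -u x) = fun z => -loc0 κ e u z := by
    funext z; simp only [loc0, smul_neg]
  rw [this]
  exact (hu e he).neg

theorem dbar0_cexp {n : WithTop ℕ∞} (hn : 1 ≤ n) {u : X → ℂ} (hu : Reg0 n 0 u) (x : X)
    (i : Fin 2) :
    dbar0 0 (fun x => Complex.exp (u x)) x i = Complex.exp (u x) * dbar0 0 u x i := by
  have h := diffAt hn hu x
  unfold dbar0
  have h0 : loc0 0 (chartAt C2 x) (fun x => Complex.exp (u x)) =
      fun z => Complex.exp (loc0 0 (chartAt C2 x) u z) := by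
    funext z; simp only [loc0, zpow_zero, one_smul]
  have h1 : HasFDerivAt (fun z => Complex.exp (loc0 0 (chartAt C2 x) u z))
      (Complex.exp (loc0 0 (chartAt C2 x) u (chartAt C2 x x)) •
        fderiv ℝ (loc0 0 (chartAt C2 x) u) (chartAt C2 x x)) (chartAt C2 x x) :=
    h.hasFDerivAt.cexp
  rw [h0]
  unfold dzb
  rw [h1.fderiv, H469.loc0_at]
  simp only [smul_apply, smul_eq_mul]
  ring

omit [IsManifold 𝓘(ℂ, C2) ω X] in
theorem dbar0_neg (κ : ℤ) (u : X → V) (x : X) (i : Fin 2) :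
    dbar0 κ (fun x => -u x) x i = -dbar0 κ u x i := by
  unfold dbar0
  have : loc0 κ (chartAt C2 x) (fun x => -u x) = fun z => -loc0 κ (chartAt C2 x) u z := by
    funext z; simp only [loc0, smul_neg]
  rw [this, FL.dzb_neg]

variable {ι : Type} [Fintype ι] [DecidableEq ι]

theorem act_smul (M : Matrix ι ι ℂ) (c : ℂ) (v : EuclideanSpace ℂ ι) :
    LB.act M (c • v) = c • LB.act M v := by
  unfold LB.act
  rw [WithLp.ofLp_smul, Matrix.mulVec_smul, WithLp.toLp_smul]

theorem act_add (M : Matrix ι ι ℂ) (v w : EuclideanSpace ℂ ι) :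
    LB.act M (v + w) = LB.act M v + LB.act M w := by
  unfold LB.act
  rw [WithLp.ofLp_add, Matrix.mulVec_add, WithLp.toLp_add]

/-- the section `φ s` -/
theorem sec_smul {L : LB X ι} {s : X → EuclideanSpace ℂ ι} (hs : L.Sec s) (φ : X → ℂ) :
    L.Sec (fun x => φ x • s x) := fun x => by rw [act_smul, hs x]

/-- the gauge transformed structure -/
def gauge (a : X → Fin 2 → ℂ) (u : X → ℂ) : X → Fin 2 → ℂ := fun x i => a x i + dbar0 0 u x i

/-- the gauge transformed section -/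
def gsec (u : X → ℂ) (s : X → EuclideanSpace ℂ ι) : X → EuclideanSpace ℂ ι :=
  fun x => Complex.exp (-u x) • s x

theorem db0_gauge {L : LB X ι} (a : X → Fin 2 → ℂ) {κ : ℤ} {s : X → EuclideanSpace ℂ ι}
    {u : X → ℂ} (hu : Reg0 ∞ 0 u) (hs : Reg0 ∞ κ s) (hsec : L.Sec s) (x : X) (i : Fin 2) :
    L.db0 (gauge a u) κ (gsec u s) x i = Complex.exp (-u x) • L.db0 a κ s x i := by
  have h1 : (1 : WithTop ℕ∞) ≤ ∞ := H469.one_le_infty
  unfold LB.db0 gauge gsec
  rw [dbar0_smul h1 (reg0_cexp (reg0_neg hu)) hs, dbar0_cexp h1 (reg0_neg hu), dbar0_neg, act_add,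
    act_smul, act_smul, hsec x]
  module

theorem gsec_reg {κ : ℤ} {s : X → EuclideanSpace ℂ ι} {u : X → ℂ} (hu : Reg0 ∞ 0 u)
    (hs : Reg0 ∞ κ s) : Reg0 ∞ κ (gsec u s) := reg0_smul (reg0_cexp (reg0_neg hu)) hs

theorem gsec_sec {L : LB X ι} {s : X → EuclideanSpace ℂ ι} (hs : L.Sec s) (u : X → ℂ) :
    L.Sec (gsec u s) := sec_smul hs _

omit [TopologicalSpace X] [ChartedSpace C2 X] [IsManifold 𝓘(ℂ, C2) ω X] in
theorem gsec_eq_zero {s : X → EuclideanSpace ℂ ι} {u : X → ℂ} {x : X} :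
    gsec u s x = 0 ↔ s x = 0 := by
  unfold gsec
  rw [smul_eq_zero]
  simp [Complex.exp_ne_zero]

theorem reg1_add {n : WithTop ℕ∞} {κ : ℤ} {a b : X → Fin 2 → V} (ha : Reg1 n κ a)
    (hb : Reg1 n κ b) : Reg1 n κ (fun x i => a x i + b x i) := by
  intro e he
  have : loc1 κ e (fun x i => a x i + b x i) = fun z => loc1 κ e a z + loc1 κ e b z := by
    funext z i
    rw [Pi.add_apply]
    exact H469.loc1_add e z κ a b i
  rw [this]
  exact (ha e he).add (hb e he)

theorem isHol_gauge {L : LB X ι} {a : X → Fin 2 → ℂ} (ha : L.IsHol a) {u : X → ℂ}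
    (hu : Reg0 ∞ 0 u) : L.IsHol (gauge a u) := by
  have hu1 : Reg1 ∞ 0 (dbar0 0 u) := H469.reg_dbar0 hu
  refine ⟨reg1_add ha.smooth hu1, fun x => ?_⟩
  rw [← ha.integrable x]
  congr 1
  have h2 := congrFun (H469.dbar1_dbar0 hu) x
  unfold dbar1 at h2 ⊢
  have he := chart_mem_atlas C2 x
  have hx := mem_chart_target C2 x
  have hd : ∀ i (b : X → Fin 2 → ℂ), Reg1 ∞ 0 b →
      DifferentiableAt ℝ (fun z => loc1 0 (chartAt C2 x) b z i) (chartAt C2 x x) := by
    intro i b hb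
    have := ((hb.contDiffAt he hx).of_le H469.one_le_infty).differentiableAt one_ne_zero
    exact differentiableAt_pi.1 this i
  have hl : ∀ i, (fun z => loc1 0 (chartAt C2 x) (gauge a u) z i) =
      fun z => loc1 0 (chartAt C2 x) a z i + loc1 0 (chartAt C2 x) (dbar0 0 u) z i := by
    intro i; funext z
    exact H469.loc1_add _ z 0 a (dbar0 0 u) i
  rw [hl, hl, FL.dzb_add (hd 1 a ha.smooth) (hd 1 _ hu1), FL.dzb_add (hd 0 a ha.smooth)
    (hd 0 _ hu1)]
  simp only [Pi.zero_apply] at h2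
  linear_combination h2

end Vale.Agent.P267.H466
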