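import Vale.Agent.P267.H466.Ain

/-!
# P267 / NEF-NF (helper466): `K` nef for line bundles with sections implies `K` nef for norm functions
-/

set_option linter.unusedSectionVars false

open scoped Manifold ContDiff ComplexConjugate Matrix Topology
open MeasureTheory Set Filter

noncomputable section

namespace Vale.Agent.P267.H466

open Vale.Agent.P267.FL Vale.Agent.P267.XT Vale.Agent.P267.H757 Vale.Agent.P267.H332

/-- every norm function is, up to a positive smooth factor, the squared norm of a holomorphic section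
of a holomorphic line bundle (D-NFDIV 338 + D-DIVLB 451) -/
def NFLB (X : Type) [TopologicalSpace X] [ChartedSpace C2 X] : Prop :=
  ∀ N : X → ℝ, IsNormFn C2 N → ∃ (r : ℕ) (L : LB X (Fin r)) (a : X → Fin 2 → ℂ)
    (s : X → EuclideanSpace ℂ (Fin r)) (ψ : X → ℝ), L.IsHol a ∧ Reg0 ∞ 0 s ∧ L.Sec s ∧
      (∀ x i, L.db0 a 0 s x i = 0) ∧ ContMDiff 𝓘(ℝ, C2) 𝓘(ℝ) ∞ ψ ∧
      ∀ x, ‖s x‖ ^ 2 = N x * Real.exp (-ψ x)

section

variable {X : Type} [TopologicalSpace X] [ChartedSpace C2 X] [IsManifold 𝓘(ℂ, C2) ω X]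

theorem cF_mul_exp {N : X → ℝ} (hN : IsNormFn C2 N) {ψ : X → ℝ}
    (hψ : ContMDiff 𝓘(ℝ, C2) 𝓘(ℝ) ∞ ψ) :
    cF (fun x => N x * Real.exp (-ψ x)) = cF N + (dbarF ψ).d := by
  have h1 : LocRep C2 (fun x => Real.exp (-ψ x)) univ (fun _ => 1) ψ :=
    locRep_exp isOpen_univ hψ.contMDiffOn
  refine twoF_ext (fun x => ?_) (fun x => ?_) fun x => ?_
  · simp [cF, dbarF_d_f20]
  · simp only [TwoF.f11_add, Pi.add_apply, dbarF_d_f11]
    show curvN (fun x => N x * Real.exp (-ψ x)) x = curvN N x + _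
    rw [curvN_mul hN (isNormFn_exp hψ), curvN_eq_ddb h1 (mem_univ x)]
  · simp [cF, dbarF_d_f02 hψ]

theorem wedge_add_left (F G η : TwoF X) (x : X) :
    (F + G).wedge η x = F.wedge η x + G.wedge η x := by
  simp only [TwoF.wedge, TwoF.f20_add, TwoF.f11_add, TwoF.f02_add, Pi.add_apply,
    Matrix.add_apply]
  ring

theorem smooth_d {A : OneF X} (hA : A.Smooth) : A.d.Smooth := by
  refine ⟨H469.reg_del10 hA.s10, ?_, H469.reg_dbar1 hA.s01⟩
  have e1 := H469.reg_del1 hA.s01
  have e2 := H469.reg_dbar10 hA.s10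
  intro e he i j
  have : (fun z => loc11 e A.d.f11 z i j) =
      fun z => loc11 e (del1 A.f01) z i j + loc11 e (dbar10 A.f10) z i j := by
    funext z
    exact H469.loc11_add e z _ _ i j
  rw [this]
  exact (e1 e he i j).add (e2 e he i j)

/-- on a compact surface adding an exact form does not change the pairing with closed forms -/
theorem intX_add_exact [CompactSpace X] (hI : IntAx X) {F η : TwoF X} {A : OneF X}
    (hF : F.Smooth) (hA : A.Smooth) (hη : η.Smooth) (hηc : η.Closed) :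
    intX ((F + A.d).wedge η) = intX (F.wedge η) := by
  have h1 : (F + A.d).wedge η = fun x => F.wedge η x + A.d.wedge η x :=
    funext fun x => wedge_add_left F A.d η x
  have hc : ∀ b : X → ℂ, HasCompactSupport b := fun b =>
    IsCompact.of_isClosed_subset isCompact_univ (isClosed_tsupport b) (subset_univ _)
  rw [h1, hI.add _ _ (reg2_wedge hF hη) (reg2_wedge (smooth_d hA) hη) (hc _) (hc _),
    hI.stokes A η hA (IsCompact.of_isClosed_subset isCompact_univ isClosed_closure
      (subset_univ _)) hη hηc, add_zero]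

/-- **NEF-NF.** -/
theorem nefNF [CompactSpace X] [Nonempty X] (hNFLB : NFLB X) (hLBNF : LBNF X) (hI : IntAx X)
    (hc : CurvOK X) {ι' : Type} [Fintype ι'] [DecidableEq ι'] {LK : LB X ι'}
    (hnef : ∀ (r : ℕ) (L : LB X (Fin r)) (a : X → Fin 2 → ℂ), L.IsHol a →
      ∀ s ∈ RR.H0 L a 0, s ≠ 0 → 0 ≤ (RR.isec L LK).re) : NefNF LK := by
  intro N hN
  obtain ⟨r, L, a, s, ψ, hol, hreg, hsec, hhol, hψ, heq⟩ := hNFLB N hN
  have hne : ∀ x, s x ≠ 0 ↔ N x ≠ 0 := by
    intro x
    have h1 := heq x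
    constructor
    · intro h2 h3
      rw [h3, zero_mul] at h1
      exact h2 (by simpa using h1)
    · intro h2 h3
      rw [h3, norm_zero] at h1
      have : N x * Real.exp (-ψ x) ≠ 0 := mul_ne_zero h2 (Real.exp_ne_zero _)
      exact this (by rw [← h1]; norm_num)
  have hdense : Dense {x | s x ≠ 0} := by
    have : {x | s x ≠ 0} = {x | N x ≠ 0} := by
      ext x; exact hne x
    rw [this]
    exact hN.dense_ne_zero
  have hs0 : s ≠ 0 := by
    obtain ⟨x, hx⟩ := hdense.nonempty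
    intro h0
    exact hx (by rw [h0]; rfl)
  obtain ⟨-, hcF⟩ := hLBNF (Fin r) L a s hol hreg hsec hhol hdense
  have h2 : (fun x => ‖s x‖ ^ 2) = fun x => N x * Real.exp (-ψ x) := funext heq
  rw [h2, cF_mul_exp hN hψ, chern_eq] at hcF
  have h3 : intX ((cF N).wedge LK.curv) = intX (L.curv.wedge LK.curv) := by
    rw [← intX_add_exact hI (cF_smooth hN) (dbarF_smooth hψ) (hc ι' LK).1 (hc ι' LK).2, hcF,
      intX_add_exact hI (hc _ L).1 (connF_smooth hol.smooth) (hc ι' LK).1 (hc ι' LK).2]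
  rw [h3]
  refine hnef r L a hol s ?_ hs0
  rw [RR.mem_H0]
  exact ⟨⟨hreg, hsec⟩, by funext x i; exact hhol x i⟩

end

end Vale.Agent.P267.H466
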